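import Vale.Agent.P207.N4.Dim
import Vale.Agent.P207.N4.H728.Buse

/-!
# P207, N3: the boundary, end points, levels (metric core)
-/

open Set Filter Topology Metric Real

noncomputable section

namespace Vale.Agent.P207.N4.H728

open Vale.Agent.P207.N3 Vale.Agent.P207.N3.H728

variable [Dim]

variable {Y : Type*} [MetricSpace Y]

/-- the boundary at infinity, as the space of the lines from the base point -/
def Bd (o : Y) : Type _ := {c : Ln Y // c 0 = o}

namespace Bd

variable {o : Y}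

/-- the line from the base point -/
def ln (ξ : Bd o) : Ln Y := ξ.1

theorem ln_zero (ξ : Bd o) : ξ.ln 0 = o := ξ.2

theorem dist_base (ξ : Bd o) (t : ℝ) : dist o (ξ.ln t) = |t| := by
  have h := ξ.ln.dist_eq 0 t
  rwa [ξ.ln_zero, zero_sub, abs_neg] at h

theorem ln_inj {ξ η : Bd o} (h : ξ.ln = η.ln) : ξ = η := Subtype.ext h

instance : TopologicalSpace (Bd o) := inferInstanceAs (TopologicalSpace {c : Ln Y // c 0 = o})

instance : T2Space (Bd o) := inferInstanceAs (T2Space {c : Ln Y // c 0 = o})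

theorem continuous_ln : Continuous (ln : Bd o → Ln Y) := continuous_subtype_val

theorem continuous_mk {Z : Type*} [TopologicalSpace Z] {f : Z → Ln Y} (hf : Continuous f)
    (h : ∀ z, f z 0 = o) : Continuous fun z => (⟨f z, h z⟩ : Bd o) := hf.subtype_mk h

instance [ProperSpace Y] : CompactSpace (Bd o) := by
  have h1 : IsCompact {c : Ln Y | c 0 = o} := by
    have := Ln.isCompact_eval (Y := Y) (K := {o}) isCompact_singleton
    exact this
  exact isCompact_iff_compactSpace.1 h1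

end Bd

theorem bus_base {o : Y} (ξ : Bd o) : bus ξ.ln o = 0 := by
  have h := bus_self ξ.ln 0
  rwa [ξ.ln_zero, neg_zero] at h

theorem abs_bus_le {o : Y} (ξ : Bd o) (x : Y) : |bus ξ.ln x| ≤ dist x o := by
  have h := bus_lip ξ.ln x o
  rwa [bus_base, sub_zero] at h

theorem not_asy_flip (c : Ln Y) : ¬ Asy c.flip c := by
  rintro ⟨C, hC⟩
  have h1 := hC (|C| + 1) (by positivity)
  rw [Ln.flip_apply, Ln.dist_eq] at h1
  have h2 : |-(|C| + 1) - (|C| + 1)| = 2 * (|C| + 1) := by
    rw [abs_of_nonpos (by linarith [abs_nonneg C])]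
    ring
  rw [h2] at h1
  linarith [le_abs_self C, abs_nonneg C]

namespace Had

variable [ProperSpace Y] (H : Had Y) (o : Y)

/-- the end point in the future -/
def ep (c : Ln Y) : Bd o := ⟨H.ray o c, H.ray_zero o c⟩

/-- the end point in the past -/
def em (c : Ln Y) : Bd o := H.ep o c.flip

theorem ep_ln (c : Ln Y) : (H.ep o c).ln = H.ray o c := rfl

theorem asy_ep (c : Ln Y) : Asy c (H.ep o c).ln := H.ray_asy o c

theorem asy_em (c : Ln Y) : Asy c.flip (H.em o c).ln := H.ray_asy o c.flip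

variable {o} in
theorem eq_ep {c : Ln Y} {ξ : Bd o} (h : Asy c ξ.ln) : H.ep o c = ξ :=
  Bd.ln_inj (H.eq_ray ξ.ln_zero h).symm

variable {o} in
theorem eq_em {c : Ln Y} {ξ : Bd o} (h : Asy c.flip ξ.ln) : H.em o c = ξ := H.eq_ep h

theorem ep_eq_iff {c c' : Ln Y} : H.ep o c = H.ep o c' ↔ Asy c c' := by
  constructor
  · intro h
    have h1 := H.asy_ep o c
    rw [h] at h1
    exact h1.trans (H.asy_ep o c').symm
  · intro h
    exact H.eq_ep (h.trans (H.asy_ep o c'))

theorem em_eq_iff {c c' : Ln Y} : H.em o c = H.em o c' ↔ Asy c.flip c'.flip := H.ep_eq_iff o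

theorem ep_self (ξ : Bd o) : H.ep o ξ.ln = ξ := H.eq_ep (Asy.refl _)

theorem ep_ray (x : Y) (c : Ln Y) : H.ep o (H.ray x c) = H.ep o c :=
  (H.ep_eq_iff o).2 (H.ray_asy x c).symm

theorem ep_flip (c : Ln Y) : H.ep o c.flip = H.em o c := rfl

theorem em_flip (c : Ln Y) : H.em o c.flip = H.ep o c := by
  unfold em
  rw [Ln.flip_flip]

theorem ep_φ (t : ℝ) (c : Ln Y) : H.ep o (c.φ t) = H.ep o c :=
  (H.ep_eq_iff o).2 (Asy.shift t c).symm

theorem em_φ (t : ℝ) (c : Ln Y) : H.em o (c.φ t) = H.em o c := by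
  unfold em
  rw [Ln.flip_φ, ep_φ]

theorem continuous_ep : Continuous (H.ep o) :=
  Bd.continuous_mk (H.continuous_ray.comp (continuous_const.prodMk continuous_id)) _

theorem continuous_em : Continuous (H.em o) := (H.continuous_ep o).comp Ln.continuous_flip

theorem em_ne_ep (c : Ln Y) : H.em o c ≠ H.ep o c := fun h =>
  not_asy_flip c ((H.ep_eq_iff o).1 h)

/-- the level: Busemann function of the end point in the past -/
def lvl (c : Ln Y) : ℝ := bus (H.em o c).ln (c 0)

theorem continuous_lvl : Continuous (H.lvl o) :=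
  H.continuous_bus.comp ((Bd.continuous_ln.comp (H.continuous_em o)).prodMk
    (Ln.continuous_eval 0))

theorem bus_em (c : Ln Y) (t : ℝ) : bus (H.em o c).ln (c t) = H.lvl o c + t := by
  have h := H.bus_asy (H.asy_em o c).symm (-t)
  rw [Ln.flip_apply, Ln.flip_apply, neg_neg, neg_zero] at h
  rw [h]
  unfold lvl
  ring

theorem lvl_φ (t : ℝ) (c : Ln Y) : H.lvl o (c.φ t) = H.lvl o c + t := by
  unfold lvl
  rw [em_φ, Ln.φ_apply, zero_add, bus_em]
  rfl

theorem abs_lvl_le (c : Ln Y) : |H.lvl o c| ≤ dist (c 0) o := abs_bus_le _ _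

/-- the Busemann function of a line in terms of the level -/
theorem bus_flip (c : Ln Y) (x : Y) : bus c.flip x = bus (H.em o c).ln x - H.lvl o c := by
  have h := H.bus_change (H.asy_em o c) x
  have h2 := H.bus_change (H.asy_em o c) (c 0)
  have h3 : bus c.flip (c 0) = 0 := by
    have := bus_self c.flip 0
    rwa [Ln.flip_apply, neg_zero] at this
  rw [h3] at h2
  rw [h]
  unfold lvl
  rw [h2]
  ring

theorem bus_eq (c : Ln Y) (x : Y) : bus c x = bus (H.ep o c).ln x - H.lvl o c.flip := by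
  have h := H.bus_flip o c.flip x
  rwa [Ln.flip_flip, em_flip] at h

/-- **uniqueness in the Hopf coordinates** -/
theorem eq_of_hopf {c c' : Ln Y} (h1 : H.em o c = H.em o c') (h2 : H.ep o c = H.ep o c')
    (h3 : H.lvl o c = H.lvl o c') : c = c' := by
  have h4 : c.flip = c'.flip := by
    refine H.eq_of_two ((H.em_eq_iff o).1 h1) ?_ ?_
    · rw [Ln.flip_flip, Ln.flip_flip]
      exact (H.ep_eq_iff o).1 h2
    · rw [H.bus_flip o c, Ln.flip_apply, neg_zero, h1, h3]
      unfold lvl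
      ring
  rw [← Ln.flip_flip c, h4, Ln.flip_flip]

theorem exists_φ {c c' : Ln Y} (h1 : H.em o c = H.em o c') (h2 : H.ep o c = H.ep o c') :
    c' = c.φ (H.lvl o c' - H.lvl o c) := by
  refine H.eq_of_hopf o ?_ ?_ ?_
  · rw [em_φ, h1]
  · rw [ep_φ, h2]
  · rw [lvl_φ]; ring

variable {o}

omit [ProperSpace Y]

/-- the angle between two boundary points -/
def gapB (ξ η : Bd o) : ℝ := dist (ξ.ln 1) (η.ln 1)

theorem continuous_gapB : Continuous fun p : Bd o × Bd o => gapB p.1 p.2 :=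
  ((Ln.continuous_eval 1).comp (Bd.continuous_ln.comp continuous_fst)).dist
    ((Ln.continuous_eval 1).comp (Bd.continuous_ln.comp continuous_snd))

include H in
theorem gapB_pos {ξ η : Bd o} (h : ξ ≠ η) : 0 < gapB ξ η := by
  refine dist_pos.2 fun h1 => h (Bd.ln_inj (H.line_unique one_pos ?_ h1))
  rw [ξ.ln_zero, η.ln_zero]

/-- the bound of the distance of the base point to the line -/
def rad (δ : ℝ) : ℝ := cosh H.a / (H.a * sinh (H.a * δ / 2))

theorem rad_nonneg {δ : ℝ} (hδ : 0 < δ) : 0 ≤ H.rad δ := by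
  have ha := H.a_pos
  have : 0 < sinh (H.a * δ / 2) := sinh_pos_iff.2 (by positivity)
  have := cosh_pos H.a
  unfold rad
  positivity

theorem rad_anti {δ δ' : ℝ} (hδ : 0 < δ) (h : δ ≤ δ') : H.rad δ' ≤ H.rad δ := by
  have ha := H.a_pos
  have h1 : 0 < sinh (H.a * δ / 2) := sinh_pos_iff.2 (by positivity)
  have h2 : sinh (H.a * δ / 2) ≤ sinh (H.a * δ' / 2) := by
    rw [sinh_le_sinh]
    nlinarith
  have := cosh_pos H.a
  unfold rad
  gcongr

/-- the middle of the segment between two points of two rays is near the base point -/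
theorem mid_le {ξ η : Bd o} (h : ξ ≠ η) {T : ℝ} (hT : 1 ≤ T) :
    dist o (H.through (ξ.ln T) (η.ln T) (dist (ξ.ln T) (η.ln T) / 2)) ≤ H.rad (gapB ξ η) := by
  have ha := H.a_pos
  have hT0 : 0 < T := by linarith
  set L := dist (ξ.ln T) (η.ln T) with hL
  set c := H.through (ξ.ln T) (η.ln T) with hc
  have h0 : ξ.ln 0 = η.ln 0 := by rw [ξ.ln_zero, η.ln_zero]
  have h1 := H.hinge' ξ.ln η.ln h0 zero_le_one hT
  rw [mul_one, ← hL] at h1
  have hg : 0 < gapB ξ η := H.gapB_pos h
  have hs1 : 0 < sinh (H.a * gapB ξ η / 2) := sinh_pos_iff.2 (by positivity)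
  have hsT : 0 < sinh (H.a * T) := sinh_pos_iff.2 (by positivity)
  have hsa : 0 < sinh H.a := sinh_pos_iff.2 ha
  change sinh (H.a * T) * sinh (H.a * gapB ξ η / 2) ≤ _ at h1
  have hsL : 0 < sinh (H.a * L / 2) := by
    by_contra hcon
    push Not at hcon
    have := mul_pos hsT hs1
    nlinarith
  have hL0 : 0 ≤ L := dist_nonneg
  have h2 := H.cat c c.2 o (L / 2) L (by linarith) (by linarith)
  have e1 : dist o (c 0) = T := by
    rw [hc, H.through_zero, Bd.dist_base, abs_of_pos hT0]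
  have e2 : dist o (c L) = T := by
    rw [hc, hL, H.through_dist, Bd.dist_base, abs_of_pos hT0]
  have e3 : L - L / 2 = L / 2 := by ring
  rw [e1, e2, e3] at h2
  set m := dist o (c (L / 2)) with hm
  have e4 : sinh (H.a * L) = 2 * sinh (H.a * L / 2) * cosh (H.a * L / 2) := by
    rw [← sinh_two_mul]; congr 1; ring
  have e5 : H.a * (L / 2) = H.a * L / 2 := by ring
  rw [e4, e5] at h2
  -- cosh(aL/2) cosh(am) ≤ cosh(aT)
  have h3 : cosh (H.a * L / 2) * cosh (H.a * m) ≤ cosh (H.a * T) := by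
    by_contra hcon
    push Not at hcon
    have := mul_lt_mul_of_pos_left hcon hsL
    nlinarith
  have h4 : sinh (H.a * L / 2) ≤ cosh (H.a * L / 2) := (sinh_lt_cosh _).le
  have hcm : 1 ≤ cosh (H.a * m) := one_le_cosh _
  have h5 : sinh (H.a * L / 2) * cosh (H.a * m) ≤ cosh (H.a * T) := by nlinarith
  -- multiply by sinh a
  have h6 : sinh (H.a * T) * sinh (H.a * gapB ξ η / 2) * cosh (H.a * m) ≤
      sinh H.a * cosh (H.a * T) := by
    have h7 := mul_le_mul_of_nonneg_right h1 (cosh_pos (H.a * m)).le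
    have h8 := mul_le_mul_of_nonneg_left h5 hsa.le
    linarith
  -- sinh a cosh (a T) ≤ cosh a sinh (a T)
  have h7 : sinh H.a * cosh (H.a * T) ≤ cosh H.a * sinh (H.a * T) := by
    have h8 := Real.sinh_sub (H.a * T) H.a
    have h9 : 0 ≤ sinh (H.a * T - H.a) := sinh_nonneg_iff.2 (by nlinarith)
    linarith
  have h8 : sinh (H.a * gapB ξ η / 2) * cosh (H.a * m) ≤ cosh H.a := by
    by_contra hcon
    push Not at hcon
    have := mul_lt_mul_of_pos_left hcon hsT
    nlinarith
  have h9 : H.a * m ≤ cosh (H.a * m) := by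
    have g1 : 0 ≤ H.a * m := mul_nonneg ha.le dist_nonneg
    exact (le_sinh g1).trans (sinh_lt_cosh _).le
  unfold rad
  rw [le_div_iff₀ (by positivity)]
  have h10 := mul_le_mul_of_nonneg_left h9 hs1.le
  nlinarith

variable [ProperSpace Y]

/-- **visibility** -/
theorem exists_join {ξ η : Bd o} (h : ξ ≠ η) : ∃ c : Ln Y, H.em o c = ξ ∧ H.ep o c = η ∧
    dist (c 0) o ≤ H.rad (gapB ξ η) := by
  set R := H.rad (gapB ξ η) with hR
  set U : Ultrafilter ℝ := Ultrafilter.of atTop with hU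
  have hUle : (U : Filter ℝ) ≤ atTop := Ultrafilter.of_le _
  set f : ℝ → Ln Y := fun T =>
    (H.through (ξ.ln T) (η.ln T)).φ (dist (ξ.ln T) (η.ln T) / 2) with hf
  have hf0 : ∀ T, f T 0 = H.through (ξ.ln T) (η.ln T) (dist (ξ.ln T) (η.ln T) / 2) := fun T => by
    simp only [hf, Ln.φ_apply, zero_add]
  have hK : IsCompact {r : Ln Y | r 0 ∈ closedBall o R} :=
    Ln.isCompact_eval (isCompact_closedBall o R)
  have h1 : (U.map f : Filter (Ln Y)) ≤ 𝓟 {r : Ln Y | r 0 ∈ closedBall o R} := by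
    rw [le_principal_iff]
    have h0 : ∀ᶠ T in (U : Filter ℝ), f T ∈ {r : Ln Y | r 0 ∈ closedBall o R} := by
      filter_upwards [hUle (eventually_ge_atTop (1 : ℝ))] with T hT
      change f T 0 ∈ closedBall o R
      rw [hf0, mem_closedBall, dist_comm]
      exact H.mid_le h hT
    exact h0
  obtain ⟨c, hc, hc'⟩ := hK.ultrafilter_le_nhds (U.map f) h1
  have hlim : Tendsto f U (𝓝 c) := hc'
  refine ⟨c, ?_, ?_, hc⟩
  · refine H.eq_em (Asy.symm ⟨5 * R, fun t ht => ?_⟩)
    have h2 : Tendsto (fun T => dist (ξ.ln t) ((f T).flip t)) U (𝓝 (dist (ξ.ln t) (c.flip t))) :=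
      tendsto_const_nhds.dist (((Ln.continuous_eval t).comp Ln.continuous_flip).tendsto c |>.comp
        hlim)
    refine le_of_tendsto h2 ?_
    filter_upwards [hUle (eventually_ge_atTop (max 1 t))] with T hT
    have hT1 : 1 ≤ T := (le_max_left _ _).trans hT
    have hTt : t ≤ T := (le_max_right _ _).trans hT
    have e0 : ((f T).flip) 0 = f T 0 := by rw [Ln.flip_apply, neg_zero]
    have e1 : ξ.ln T = (f T).flip (dist (ξ.ln T) (η.ln T) / 2) := by
      simp only [hf, Ln.flip_apply, Ln.φ_apply, neg_add_cancel, H.through_zero]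
    have e2 : dist (f T 0) (ξ.ln T) = dist (ξ.ln T) (η.ln T) / 2 := by
      rw [e1, ← e0, Ln.dist_eq, zero_sub, abs_neg, abs_of_nonneg (by positivity), ← e1]
    have h3 := H.travel ξ.ln (f T).flip (x := f T 0) e0 (T := T) (by rw [e2, ← e1]) ht hTt
    refine h3.trans ?_
    rw [ξ.ln_zero, dist_comm, hf0]
    exact mul_le_mul_of_nonneg_left (H.mid_le h hT1) (by norm_num)
  · refine H.eq_ep (Asy.symm ⟨5 * R, fun t ht => ?_⟩)
    have h2 : Tendsto (fun T => dist (η.ln t) (f T t)) U (𝓝 (dist (η.ln t) (c t))) :=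
      tendsto_const_nhds.dist (((Ln.continuous_eval t).tendsto c).comp hlim)
    refine le_of_tendsto h2 ?_
    filter_upwards [hUle (eventually_ge_atTop (max 1 t))] with T hT
    have hT1 : 1 ≤ T := (le_max_left _ _).trans hT
    have hTt : t ≤ T := (le_max_right _ _).trans hT
    have e1 : η.ln T = f T (dist (ξ.ln T) (η.ln T) / 2) := by
      simp only [hf, Ln.φ_apply, add_halves, H.through_dist]
    have e2 : dist (f T 0) (η.ln T) = dist (ξ.ln T) (η.ln T) / 2 := by
      rw [e1, Ln.dist_eq, zero_sub, abs_neg, abs_of_nonneg (by positivity), ← e1]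
    have h3 := H.travel η.ln (f T) (x := f T 0) rfl (T := T) (by rw [e2, ← e1]) ht hTt
    refine h3.trans ?_
    rw [η.ln_zero, dist_comm, hf0]
    exact mul_le_mul_of_nonneg_left (H.mid_le h hT1) (by norm_num)

theorem exists_hopf {ξ η : Bd o} (h : ξ ≠ η) (t : ℝ) : ∃ c : Ln Y, H.em o c = ξ ∧
    H.ep o c = η ∧ H.lvl o c = t := by
  obtain ⟨c, h1, h2, -⟩ := H.exists_join h
  refine ⟨c.φ (t - H.lvl o c), ?_, ?_, ?_⟩
  · rw [em_φ, h1]
  · rw [ep_φ, h2]
  · rw [lvl_φ]; ring

theorem dist_le_of_hopf (c : Ln Y) :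
    dist (c 0) o ≤ 2 * H.rad (gapB (H.em o c) (H.ep o c)) + |H.lvl o c| := by
  obtain ⟨c', h1, h2, h3⟩ := H.exists_join (H.em_ne_ep o c)
  have h4 := H.exists_φ o h1 h2
  have h5 := H.abs_lvl_le o c'
  have h6 : c 0 = c' (H.lvl o c - H.lvl o c') := by
    have h7 : c 0 = (c'.φ (H.lvl o c - H.lvl o c')) 0 := congrArg (fun r : Ln Y => r 0) h4
    rw [h7, Ln.φ_apply, zero_add]
  calc dist (c 0) o ≤ dist (c 0) (c' 0) + dist (c' 0) o := dist_triangle _ _ _
    _ = |H.lvl o c - H.lvl o c'| + dist (c' 0) o := by rw [h6, Ln.dist_eq, sub_zero]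
    _ ≤ (|H.lvl o c| + |H.lvl o c'|) + dist (c' 0) o := by gcongr; exact abs_sub _ _
    _ ≤ _ := by linarith

/-- **the Hopf coordinates are proper** -/
theorem isCompact_hopf {K : Set (Bd o × Bd o)} (hK : IsCompact K) (hd : ∀ p ∈ K, p.1 ≠ p.2)
    (C : ℝ) : IsCompact {c : Ln Y | (H.em o c, H.ep o c) ∈ K ∧ |H.lvl o c| ≤ C} := by
  have hclosed : IsClosed {c : Ln Y | (H.em o c, H.ep o c) ∈ K ∧ |H.lvl o c| ≤ C} :=
    (hK.isClosed.preimage ((H.continuous_em o).prodMk (H.continuous_ep o))).inter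
      (isClosed_le (H.continuous_lvl o).abs continuous_const)
  rcases K.eq_empty_or_nonempty with hE | hE
  · have : {c : Ln Y | (H.em o c, H.ep o c) ∈ K ∧ |H.lvl o c| ≤ C} = ∅ := by
      ext c
      simp [hE]
    rw [this]
    exact isCompact_empty
  obtain ⟨p, hp, hmin⟩ := hK.exists_isMinOn hE continuous_gapB.continuousOn
  set δ := gapB p.1 p.2 with hδ
  have hδ0 : 0 < δ := H.gapB_pos (hd p hp)
  refine Ln.isCompact_of_closed hclosed (isCompact_closedBall o (2 * H.rad δ + C)) ?_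
  rintro c ⟨h1, h2⟩
  have h3 := H.dist_le_of_hopf (o := o) c
  have h4 : δ ≤ gapB (H.em o c) (H.ep o c) := hmin h1
  have h5 := H.rad_anti hδ0 h4
  rw [mem_closedBall]
  linarith

end Had

end Vale.Agent.P207.N4.H728
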