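import Vale.Agent.P207.N4.Dim
import Vale.Agent.P207.N4.H728.Bdry

/-!
# P207, N3: the line joining two boundary points, and the stable holonomy of lines (metric core)
-/

open Set Filter Topology Metric Real

noncomputable section

namespace Vale.Agent.P207.N4.H728

open Vale.Agent.P207.N3 Vale.Agent.P207.N3.H728

variable [Dim]

variable {Y : Type*} [MetricSpace Y]

namespace Had

variable [ProperSpace Y] (H : Had Y) {o : Y}

open Classical in
/-- the line from `ξ` to `η` of level `t` -/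
def join (ξ η : Bd o) (t : ℝ) : Ln Y :=
  if h : ξ ≠ η then (H.exists_hopf h t).choose else ξ.ln

variable {ξ η : Bd o}

theorem join_spec (h : ξ ≠ η) (t : ℝ) : H.em o (H.join ξ η t) = ξ ∧ H.ep o (H.join ξ η t) = η ∧
    H.lvl o (H.join ξ η t) = t := by
  unfold join
  rw [dif_pos h]
  exact (H.exists_hopf h t).choose_spec

theorem em_join (h : ξ ≠ η) (t : ℝ) : H.em o (H.join ξ η t) = ξ := (H.join_spec h t).1

theorem ep_join (h : ξ ≠ η) (t : ℝ) : H.ep o (H.join ξ η t) = η := (H.join_spec h t).2.1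

theorem lvl_join (h : ξ ≠ η) (t : ℝ) : H.lvl o (H.join ξ η t) = t := (H.join_spec h t).2.2

theorem eq_join {c : Ln Y} (h1 : H.em o c = ξ) (h2 : H.ep o c = η) {t : ℝ} (h3 : H.lvl o c = t) :
    c = H.join ξ η t := by
  have h : ξ ≠ η := by
    rw [← h1, ← h2]
    exact H.em_ne_ep o c
  refine H.eq_of_hopf o ?_ ?_ ?_
  · rw [em_join _ h, h1]
  · rw [ep_join _ h, h2]
  · rw [lvl_join _ h, h3]

theorem join_self (c : Ln Y) : H.join (H.em o c) (H.ep o c) (H.lvl o c) = c :=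
  (H.eq_join rfl rfl rfl).symm

theorem continuousAt_join {p : (Bd o × Bd o) × ℝ} (hp : p.1.1 ≠ p.1.2) :
    ContinuousAt (fun p : (Bd o × Bd o) × ℝ => H.join p.1.1 p.1.2 p.2) p := by
  have hne : ∀ᶠ q : (Bd o × Bd o) × ℝ in 𝓝 p, q.1.1 ≠ q.1.2 :=
    (isOpen_ne_fun (continuous_fst.comp continuous_fst)
      (continuous_snd.comp continuous_fst)).mem_nhds hp
  have hg : 0 < gapB p.1.1 p.1.2 := H.gapB_pos hp
  refine Ln.continuousAt_of_unique (x := o) (R := 2 * H.rad (gapB p.1.1 p.1.2 / 2) + (|p.2| + 1))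
    ?_ ?_
  · have h1 : ∀ᶠ q : (Bd o × Bd o) × ℝ in 𝓝 p, gapB p.1.1 p.1.2 / 2 < gapB q.1.1 q.1.2 :=
      (continuous_gapB.comp continuous_fst).continuousAt.eventually_const_lt (by
        change _ < gapB p.1.1 p.1.2
        linarith)
    have h2 : ∀ᶠ q : (Bd o × Bd o) × ℝ in 𝓝 p, |q.2| < |p.2| + 1 :=
      continuous_snd.abs.continuousAt.eventually_lt_const (by linarith)
    filter_upwards [hne, h1, h2] with q hq h1 h2
    have h3 := H.dist_le_of_hopf (o := o) (H.join q.1.1 q.1.2 q.2)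
    rw [em_join _ hq, ep_join _ hq, lvl_join _ hq] at h3
    have h4 := H.rad_anti (half_pos hg) h1.le
    linarith
  · intro U c hU hc
    have hneU := hU hne
    have h1 : Tendsto (fun q : (Bd o × Bd o) × ℝ => H.em o (H.join q.1.1 q.1.2 q.2)) U
      (𝓝 (H.em o c)) := ((H.continuous_em o).tendsto c).comp hc
    have h2 : Tendsto (fun q : (Bd o × Bd o) × ℝ => H.ep o (H.join q.1.1 q.1.2 q.2)) U
      (𝓝 (H.ep o c)) := ((H.continuous_ep o).tendsto c).comp hc
    have h3 : Tendsto (fun q : (Bd o × Bd o) × ℝ => H.lvl o (H.join q.1.1 q.1.2 q.2)) U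
      (𝓝 (H.lvl o c)) := ((H.continuous_lvl o).tendsto c).comp hc
    have g1 : Tendsto (fun q : (Bd o × Bd o) × ℝ => q.1.1) U (𝓝 p.1.1) :=
      ((continuous_fst.comp continuous_fst).tendsto p).mono_left hU
    have g2 : Tendsto (fun q : (Bd o × Bd o) × ℝ => q.1.2) U (𝓝 p.1.2) :=
      ((continuous_snd.comp continuous_fst).tendsto p).mono_left hU
    have g3 : Tendsto (fun q : (Bd o × Bd o) × ℝ => q.2) U (𝓝 p.2) :=
      (continuous_snd.tendsto p).mono_left hU
    refine H.eq_join ?_ ?_ ?_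
    · refine tendsto_nhds_unique h1 (g1.congr' ?_)
      filter_upwards [hneU] with q hq
      exact (H.em_join hq _).symm
    · refine tendsto_nhds_unique h2 (g2.congr' ?_)
      filter_upwards [hneU] with q hq
      exact (H.ep_join hq _).symm
    · refine tendsto_nhds_unique h3 (g3.congr' ?_)
      filter_upwards [hneU] with q hq
      exact (H.lvl_join hq _).symm

/-- **Hopf coordinates**: the joining line depends continuously on the data -/
theorem continuousOn_join : ContinuousOn (fun p : (Bd o × Bd o) × ℝ => H.join p.1.1 p.1.2 p.2)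
    {p | p.1.1 ≠ p.1.2} := fun _ hp => (H.continuousAt_join hp).continuousWithinAt

/-- **the stable holonomy of lines** -/
def hol (ξ : Bd o) (c : Ln Y) : Ln Y := (H.join (H.ep o c) ξ (H.lvl o c.flip)).flip

variable {c : Ln Y}

theorem em_hol (h : ξ ≠ H.ep o c) : H.em o (H.hol ξ c) = ξ := by
  unfold hol
  rw [em_flip, ep_join _ h.symm]

theorem ep_hol (h : ξ ≠ H.ep o c) : H.ep o (H.hol ξ c) = H.ep o c := by
  unfold hol
  rw [ep_flip, em_join _ h.symm]

theorem lvl_flip_hol (h : ξ ≠ H.ep o c) : H.lvl o (H.hol ξ c).flip = H.lvl o c.flip := by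
  unfold hol
  rw [Ln.flip_flip, lvl_join _ h.symm]

theorem eq_hol {c' : Ln Y} (h1 : H.em o c' = ξ) (h2 : H.ep o c' = H.ep o c)
    (h3 : H.lvl o c'.flip = H.lvl o c.flip) : c' = H.hol ξ c := by
  unfold hol
  rw [← H.eq_join (c := c'.flip) (ξ := H.ep o c) (η := ξ) (t := H.lvl o c.flip), Ln.flip_flip]
  · rw [em_flip, h2]
  · rw [ep_flip, h1]
  · exact h3

theorem hol_self (c : Ln Y) : H.hol (H.em o c) c = c := (H.eq_hol rfl rfl rfl).symm

theorem hol_hol {ξ' : Bd o} (h : ξ ≠ H.ep o c) (h' : ξ' ≠ H.ep o c) :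
    H.hol ξ' (H.hol ξ c) = H.hol ξ' c := by
  have h'' : ξ' ≠ H.ep o (H.hol ξ c) := by rwa [H.ep_hol h]
  refine H.eq_hol (H.em_hol h'') ?_ ?_
  · rw [H.ep_hol h'', H.ep_hol h]
  · rw [H.lvl_flip_hol h'', H.lvl_flip_hol h]

theorem lvl_flip_φ (t : ℝ) (c : Ln Y) : H.lvl o (c.φ t).flip = H.lvl o c.flip - t := by
  rw [Ln.flip_φ, lvl_φ]
  ring

theorem hol_φ (t : ℝ) (h : ξ ≠ H.ep o c) : H.hol ξ (c.φ t) = (H.hol ξ c).φ t := by
  refine (H.eq_hol ?_ ?_ ?_).symm
  · rw [em_φ, H.em_hol h]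
  · rw [ep_φ, ep_φ, H.ep_hol h]
  · rw [lvl_flip_φ, lvl_flip_φ, H.lvl_flip_hol h]

theorem continuousAt_hol {p : Bd o × Ln Y} (hp : p.1 ≠ H.ep o p.2) :
    ContinuousAt (fun p : Bd o × Ln Y => H.hol p.1 p.2) p := by
  have h1 : Continuous fun p : Bd o × Ln Y => ((H.ep o p.2, p.1), H.lvl o p.2.flip) :=
    (((H.continuous_ep o).comp continuous_snd).prodMk continuous_fst).prodMk
      ((H.continuous_lvl o).comp (Ln.continuous_flip.comp continuous_snd))
  have h2 : ContinuousAt (fun p : (Bd o × Bd o) × ℝ => H.join p.1.1 p.1.2 p.2)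
      ((H.ep o p.2, p.1), H.lvl o p.2.flip) := H.continuousAt_join hp.symm
  have h3 : ContinuousAt (fun p : Bd o × Ln Y => H.join (H.ep o p.2) p.1 (H.lvl o p.2.flip)) p :=
    ContinuousAt.comp (f := fun p : Bd o × Ln Y => ((H.ep o p.2, p.1), H.lvl o p.2.flip))
      (g := fun p : (Bd o × Bd o) × ℝ => H.join p.1.1 p.1.2 p.2) h2 h1.continuousAt
  exact Ln.continuous_flip.continuousAt.comp h3

theorem continuousOn_hol :
    ContinuousOn (fun p : Bd o × Ln Y => H.hol p.1 p.2) {p | p.1 ≠ H.ep o p.2} :=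
  fun _ hp => (H.continuousAt_hol hp).continuousWithinAt

theorem asy_hol (h : ξ ≠ H.ep o c) : Asy c (H.hol ξ c) := (H.ep_eq_iff o).1 (H.ep_hol h).symm

theorem bus_hol (h : ξ ≠ H.ep o c) : bus c (H.hol ξ c 0) = 0 := by
  have h1 : H.lvl o (H.hol ξ c).flip = bus (H.ep o c).ln (H.hol ξ c 0) := by
    unfold lvl
    rw [em_flip, H.ep_hol h, Ln.flip_apply, neg_zero]
  rw [H.bus_eq o c, ← h1, H.lvl_flip_hol h, sub_self]

/-- **the stable holonomy contracts exponentially** -/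
theorem dist_hol_le (h : ξ ≠ H.ep o c) {s R : ℝ} (hs : 0 ≤ s) (hR : dist (c 0) (H.hol ξ c 0) ≤ R) :
    dist (c s) (H.hol ξ c s) ≤ H.κ R * exp (-(H.a * s)) :=
  H.decay_κ (H.asy_hol h) (H.bus_hol h) hs hR

theorem hol_asym {K : Set (Bd o × Ln Y)} (hK : IsCompact K) (hd : ∀ p ∈ K, p.1 ≠ H.ep o p.2) :
    ∃ C, 0 ≤ C ∧ ∀ p ∈ K, ∀ s, 0 ≤ s → dist (p.2 s) (H.hol p.1 p.2 s) ≤ C * exp (-(H.a * s)) := by
  have h1 : ContinuousOn (fun p : Bd o × Ln Y => dist (p.2 0) (H.hol p.1 p.2 0)) K := by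
    intro p hp
    have h2 := (Ln.continuous_eval (Y := Y) 0).continuousAt.comp (H.continuousAt_hol (hd p hp))
    have h3 : ContinuousAt (fun p : Bd o × Ln Y => dist (p.2 0) (H.hol p.1 p.2 0)) p :=
      ((Ln.continuous_eval (Y := Y) 0).comp continuous_snd).continuousAt.dist h2
    exact h3.continuousWithinAt
  obtain ⟨R, hR⟩ := (hK.image_of_continuousOn h1).bddAbove
  refine ⟨H.κ (max R 0), H.κ_nonneg (le_max_right _ _), fun p hp s hs => ?_⟩
  refine H.dist_hol_le (hd p hp) hs ?_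
  exact (hR ⟨p, hp, rfl⟩).trans (le_max_left _ _)

/-! ### the function `D` -/

/-- `lvl c + lvl c.flip` depends only on the end points -/
theorem lvl_add {c' : Ln Y} (h1 : H.em o c = H.em o c') (h2 : H.ep o c = H.ep o c') :
    H.lvl o c + H.lvl o c.flip = H.lvl o c' + H.lvl o c'.flip := by
  have h3 := H.exists_φ o h1 h2
  rw [h3, lvl_φ, lvl_flip_φ]
  ring

/-- the function `D(ξ, η) = -2 (ξ|η)` -/
def Dd (ξ η : Bd o) : ℝ := H.lvl o (H.join ξ η 0) + H.lvl o (H.join ξ η 0).flip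

theorem Dd_eq (c : Ln Y) : H.Dd (H.em o c) (H.ep o c) = H.lvl o c + H.lvl o c.flip := by
  have h := H.em_ne_ep o c
  exact H.lvl_add (H.em_join h 0) (H.ep_join h 0)

theorem continuousOn_Dd : ContinuousOn (fun p : Bd o × Bd o => H.Dd p.1 p.2) {p | p.1 ≠ p.2} := by
  intro p hp
  have h1 : ContinuousAt (fun p : Bd o × Bd o => H.join p.1 p.2 0) p := by
    have h2 : ContinuousAt (fun p : (Bd o × Bd o) × ℝ => H.join p.1.1 p.1.2 p.2) (p, 0) :=
      H.continuousAt_join hp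
    exact ContinuousAt.comp (f := fun p : Bd o × Bd o => (p, (0 : ℝ)))
      (g := fun p : (Bd o × Bd o) × ℝ => H.join p.1.1 p.1.2 p.2) h2
      (continuous_id.prodMk continuous_const).continuousAt
  refine ContinuousAt.continuousWithinAt ?_
  exact ((H.continuous_lvl o).continuousAt.comp h1).add
    (((H.continuous_lvl o).comp Ln.continuous_flip).continuousAt.comp h1)

end Had

end Vale.Agent.P207.N4.H728
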