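import Vale.Agent.P207.N4.Dim
import Vale.Agent.P207.N4.H76.SliceC0
import Vale.Agent.P207.N4.H709.Act

/-!
# P207, N3: the group fields of `Leaf` over the structure `Geo`, at any base point
-/

open Set Filter Topology Metric Real
open Vale.Agent.P207.N4.H709 Vale.Agent.P207.N3.H709

noncomputable section

namespace Vale.Agent.P207.N4.H76.Geo

open Vale.Agent.P207.N3 Vale.Agent.P207.N3.H76 Vale.Agent.P207.N3.H76.Geo

variable [Dim]

open Vale.Agent.P207.N4.H728 Vale.Agent.P207.N3.H728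

variable {Γ X Y : Type} [Group Γ] [MetricSpace X] [ProperSpace X] [MetricSpace Y]
  [ProperSpace Y] [MulAction Γ X] [MulAction Γ Y] [IsIsometricSMul Γ X] [IsIsometricSMul Γ Y]
  (G : Geo Γ X Y) (o : Y)

theorem em_smul (g : Γ) (x : X) : G.em o (g • x) = H709.act G.had o g (G.em o x) := by
  rw [em, G.p_smul, H709.em_smul]
  rfl

theorem ep_smul (g : Γ) (x : X) : G.ep o (g • x) = H709.act G.had o g (G.ep o x) := by
  rw [ep, G.p_smul, H709.ep_smul]
  rfl

theorem lv_smul (g : Γ) (x y : X) (h : G.em o x = G.em o y) :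
    G.lv o (g • x) - G.lv o (g • y) = G.lv o x - G.lv o y := by
  rw [lv, lv, G.p_smul, G.p_smul]
  exact H709.lvl_smul_sub G.had o g h

theorem lv_smul' (g : Γ) (x : X) :
    G.lv o (g • x) = G.lv o x - bus (G.em o x).ln (g⁻¹ • o) := by
  rw [lv, G.p_smul, H709.lvl_smul]
  rfl

include G in
/-- a boundary point in each direction -/
theorem exists_bd (x : X) (hx : G.ft x = o) {u : E3} (hu : ‖u‖ = 1) :
    ∃ ξ : Bd o, ξ.ln 1 = G.E x u := by
  obtain ⟨A, hA⟩ := exists_rot_e0 hu
  refine ⟨⟨G.p (G.act A x), ?_⟩, ?_⟩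
  · rw [G.p_zero, G.ft_act, hx]
  · change G.p (G.act A x) 1 = _
    rw [G.p_apply, one_smul, G.E_act, hA]

include G in
/-- three different points of the boundary -/
theorem exists_three : ∃ ξ₁ ξ₂ ξ₃ : Bd o, ξ₁ ≠ ξ₂ ∧ ξ₁ ≠ ξ₃ ∧ ξ₂ ≠ ξ₃ := by
  obtain ⟨x, hx⟩ := G.exists_ft o
  let q : Fin 3 → Fin (Dim.m + 1) := Fin.castLE (by have := Dim.two_le; omega)
  have hq : Function.Injective q := Fin.castLE_injective _
  have hn : ∀ i : Fin 3, ‖(EuclideanSpace.single (q i) (1 : ℝ) : E3)‖ = 1 := fun i => by simp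
  have hne : ∀ i j : Fin 3, i ≠ j →
      (EuclideanSpace.single (q i) (1 : ℝ) : E3) ≠ EuclideanSpace.single (q j) 1 :=
    fun i j h he => by
      have := congrArg (fun v : E3 => v (q i)) he
      simp [hq.ne h] at this
  choose ξ hξ using fun i : Fin 3 => G.exists_bd o x hx (hn i)
  have hd : ∀ i j : Fin 3, i ≠ j → ξ i ≠ ξ j := fun i j h he => hne i j h <| G.E_inj x (by
    rw [← hξ i, ← hξ j, he])
  exact ⟨ξ 0, ξ 1, ξ 2, hd 0 1 (by decide), hd 0 2 (by decide), hd 1 2 (by decide)⟩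

/-- **every orbit of the group on the boundary is dense** -/
theorem dense_orbit (η : Bd o) : Dense (range fun g : Γ => H709.act G.had o g η) :=
  H709.dense_orbit G.had o G.cocompact_ft G.proper_ft (fun g y h => G.free g y h)
    (G.exists_three o) η

include G in
/-- the group is not trivial -/
theorem exists_ne_one : ∃ β : Γ, β ≠ 1 := by
  have o : Y := G.ft G.nonempty.some
  obtain ⟨ξ, -⟩ := G.exists_three o
  obtain ⟨γ, hγ⟩ := H709.exists_not_fixed G.had o G.cocompact_ft G.proper_ft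
    (fun g y h => G.free g y h) (G.exists_three o) ξ
  refine ⟨γ, fun h => hγ ?_⟩
  rw [h, H709.act_one]

include G in
/-- the boundary is infinite -/
theorem bd_infinite : Infinite (Bd o) := by
  obtain ⟨x, hx⟩ := G.exists_ft o
  have h2le := Dim.two_le
  let i0 : Fin (Dim.m + 1) := ⟨0, by omega⟩
  let i1 : Fin (Dim.m + 1) := ⟨1, by omega⟩
  have h01 : i0 ≠ i1 := fun h => by simp [i0, i1, Fin.ext_iff] at h
  let w : ℝ → E3 := fun t => EuclideanSpace.single i0 (cos t) + EuclideanSpace.single i1 (sin t)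
  have hw : ∀ t, ‖w t‖ = 1 := fun t => by
    have h3 : inner ℝ (EuclideanSpace.single i0 (cos t) : E3)
        (EuclideanSpace.single i1 (sin t)) = 0 := by
      rw [EuclideanSpace.inner_single_left]
      simp [h01]
    have h4 := norm_add_sq_eq_norm_sq_add_norm_sq_of_inner_eq_zero _ _ h3
    have h5 : ‖w t‖ * ‖w t‖ = 1 := by
      rw [h4]
      simp only [PiLp.norm_single, norm_eq_abs, abs_mul_abs_self]
      nlinarith [sin_sq_add_cos_sq t]
    nlinarith [norm_nonneg (w t)]
  choose ξ hξ using fun t : ℝ => G.exists_bd o x hx (hw t)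
  have hinj : InjOn ξ (Icc 0 1) := by
    intro s hs t ht h
    have h1 : w s = w t := G.E_inj x (by rw [← hξ s, ← hξ t, h])
    have h2 := congrArg (fun v : E3 => v i0) h1
    simp [w, h01] at h2
    have hpi := pi_gt_three
    exact injOn_cos ⟨hs.1, by linarith [hs.2]⟩ ⟨ht.1, by linarith [ht.2]⟩ h2
  have h3 : (Icc (0 : ℝ) 1).Infinite := Icc_infinite one_pos
  exact Set.infinite_univ_iff.1 (((h3.image hinj).mono (subset_univ _)))

end Vale.Agent.P207.N4.H76.Geo
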